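import Vale.Agent.Lib.P154_q4.Point
import Vale.Agent.Lib.P154_q4.Tree4
import Vale.Agent.Lib.P154_q4.Tree4GW
import Vale.Agent.Lib.P154.NegGW
import Vale.Agent.Lib.P154M.Main

/-!
Nonreconstruction at and below the Kesten-Stigum bound for the Potts channel with three and four
states: all eigenvalues `lam ≥ 0` for `q = 3, 4` on `d`-ary trees, on Poisson trees and on
Galton-Watson trees; and for `q = 3`, `lam < 0`: all `d ≥ 5` and `d ≤ 3` on `d`-ary trees, and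
`lam ≥ -4/9` on Poisson trees.
-/

open Filter Topology Vale.Agent.Lib.P154

namespace Vale.Agent.Results.P154.A00_dge5

theorem result :
    (∀ q : ℕ, (q = 3 ∨ q = 4) → ∀ d : ℕ, 2 ≤ d → ∀ lam : ℝ, 0 ≤ lam → (d : ℝ) * lam ^ 2 ≤ 1 →
      Tendsto (advantage d q lam) atTop (𝓝 0))
    ∧ (∀ q : ℕ, (q = 3 ∨ q = 4) → ∀ d lam : ℝ, 0 < d → 0 ≤ lam → lam < 1 → d * lam ^ 2 ≤ 1 →
      (∀ n, Summable (fun T : GWTree n => gwWeight (poissonLaw d) n T * gwTreeAdvantage q lam n T))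
        ∧ Tendsto (gwAdvantage (poissonLaw d) q lam) atTop (𝓝 0))
    ∧ (∀ q : ℕ, (q = 3 ∨ q = 4) → ∀ (p : ℕ → ℝ) (d lam : ℝ), (∀ k, 0 ≤ p k) → HasSum p 1 →
      HasSum (fun k : ℕ => (k : ℝ) * p k) d → 0 < 1 - p 0 - p 1 →
      0 ≤ lam → lam < 1 → d * lam ^ 2 ≤ 1 →
      (∀ n, Summable (fun T : GWTree n => gwWeight p n T * gwTreeAdvantage q lam n T))
        ∧ Tendsto (gwAdvantage p q lam) atTop (𝓝 0))
    ∧ (∀ d : ℕ, 2 ≤ d → ∀ lam : ℝ, -(1 / 2) ≤ lam → lam < 0 →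
      (d ≠ 4 ∧ (d : ℝ) * lam ^ 2 ≤ 1 ∨ d ≤ 3 ∨ (d : ℝ) * lam ^ 2 ≤ 1 - 3 / (d : ℝ) ^ 2) →
      Tendsto (advantage d 3 lam) atTop (𝓝 0))
    ∧ (∀ d lam : ℝ, 0 < d → -(4 / 9) ≤ lam → lam < 0 → d * lam ^ 2 ≤ 1 →
      (∀ n, Summable (fun T : GWTree n => gwWeight (poissonLaw d) n T * gwTreeAdvantage 3 lam n T))
        ∧ Tendsto (gwAdvantage (poissonLaw d) 3 lam) atTop (𝓝 0))
    ∧ (∀ (p : ℕ → ℝ) (d lam : ℝ), (∀ k, 0 ≤ p k) → HasSum p 1 →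
      HasSum (fun k : ℕ => (k : ℝ) * p k) d → 0 < 1 - p 0 - p 1 →
      -(9 / 50) ≤ lam → lam < 0 → d * lam ^ 2 ≤ 1 →
      (∀ n, Summable (fun T : GWTree n => gwWeight p n T * gwTreeAdvantage 3 lam n T))
        ∧ Tendsto (gwAdvantage p 3 lam) atTop (𝓝 0)) := by
  have hpt := Vale.Agent.Lib.P154_q4.pointIneq
  refine ⟨?_, ?_, ?_, ?_, ?_, ?_⟩
  · rintro q (rfl | rfl) d hd lam h0 hKS
    · exact advantage_tendsto hd h0 hKS
    · exact Vale.Agent.Lib.P154_q4.advantage_tendsto hpt hd h0 hKS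
  · rintro q (rfl | rfl) d lam hd h0 h1 hKS
    · exact gwAdvantage_poisson hd h0 h1 hKS
    · exact Vale.Agent.Lib.P154_q4.gwAdvantage_poisson hpt hd h0 h1 hKS
  · rintro q (rfl | rfl) p d lam hp0 hp1 hmean hp2 h0 h1 hKS
    · exact gwAdvantage_tendsto ⟨hp0, hp1⟩ hmean hp2 h0 h1 hKS
    · exact Vale.Agent.Lib.P154_q4.gwAdvantage_tendsto hpt ⟨hp0, hp1⟩ hmean hp2 h0 h1 hKS
  · intro d hd lam h0 h1 hc
    obtain ⟨μ, rfl⟩ : ∃ μ, lam = -μ := ⟨-lam, by ring⟩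
    rcases hc with ⟨h4, hKS⟩ | h3 | h3
    · rcases Nat.lt_or_ge d 4 with h5 | h5
      · exact reg_main d hd (-μ) h0 h1 (Or.inl (by omega))
      · have hsq : (-μ) ^ 2 = μ ^ 2 := by ring
        rw [hsq] at hKS
        exact Vale.Agent.Lib.P154M.reg_main (by omega) (by linarith) hKS
    · exact reg_main d hd (-μ) h0 h1 (Or.inl h3)
    · exact reg_main d hd (-μ) h0 h1 (Or.inr (Or.inl h3))
  · intro d lam hd h0 h1 hKS
    obtain ⟨μ, rfl⟩ : ∃ μ, lam = -μ := ⟨-lam, by ring⟩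
    have hsq : (-μ) ^ 2 = μ ^ 2 := by ring
    rw [hsq] at hKS
    exact Vale.Agent.Lib.P154M.poi_main hd (by linarith) (by linarith) hKS
  · intro p d lam hp0 hp1 hmean hp2 h0 h1 hKS
    obtain ⟨μ, rfl⟩ : ∃ μ, lam = -μ := ⟨-lam, by ring⟩
    have hsq : (-μ) ^ 2 = μ ^ 2 := by ring
    rw [hsq] at hKS
    exact gw_crit ⟨hp0, hp1⟩ hmean hp2 (by linarith) (by linarith) hKS

end Vale.Agent.Results.P154.A00_dge5
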