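import Vale.Agent.Lib.P154.TreeGW
import Vale.Agent.Lib.P154_q4.Tree4GW
import Vale.Agent.Lib.P154_q4.Tree4
import Vale.Agent.Lib.P154_q4.Point
import Vale.Agent.Lib.P154_q4.Corner

/-!
Nonreconstruction for the ferromagnetic three- and four-state Potts channels at and below the
Kesten-Stigum bound: on every `d`-ary tree, on Poisson trees for every mean, and on Galton-Watson
trees with any offspring law that has a finite mean and can have at least two children.
-/

open Filter Topology Vale.Agent.Lib.P154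

namespace Vale.Agent.Results.P154.A_q34_ferro

theorem result (q : ℕ) (hq : q = 3 ∨ q = 4) :
    (∀ d : ℕ, 2 ≤ d → ∀ lam : ℝ, 0 ≤ lam → (d : ℝ) * lam ^ 2 ≤ 1 →
      Tendsto (advantage d q lam) atTop (𝓝 0))
    ∧ (∀ d lam : ℝ, 0 < d → 0 ≤ lam → lam ≤ 1 → d * lam ^ 2 ≤ 1 →
      (∀ n, Summable (fun T : GWTree n => gwWeight (poissonLaw d) n T * gwTreeAdvantage q lam n T))
        ∧ Tendsto (gwAdvantage (poissonLaw d) q lam) atTop (𝓝 0))
    ∧ (∀ (p : ℕ → ℝ) (d lam : ℝ), (∀ k, 0 ≤ p k) → HasSum p 1 →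
      HasSum (fun k : ℕ => (k : ℝ) * p k) d → 0 < 1 - p 0 - p 1 →
      0 ≤ lam → lam < 1 → d * lam ^ 2 ≤ 1 →
      (∀ n, Summable (fun T : GWTree n => gwWeight p n T * gwTreeAdvantage q lam n T))
        ∧ Tendsto (gwAdvantage p q lam) atTop (𝓝 0)) := by
  have corner : ∀ d lam : ℝ, 0 < d → lam = 1 → d * lam ^ 2 ≤ 1 →
      (∀ n, Summable (fun T : GWTree n => gwWeight (poissonLaw d) n T * gwTreeAdvantage q lam n T))
        ∧ Tendsto (gwAdvantage (poissonLaw d) q lam) atTop (𝓝 0) := by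
    intro d lam hd hl hKS
    subst hl
    refine Vale.Agent.Lib.P154_q4.gwAdvantage_corner (by rcases hq with rfl | rfl <;> norm_num)
      hd.le (by simpa using hKS)
  rcases hq with rfl | rfl
  · refine ⟨fun _ hd _ h0 hKS => advantage_tendsto hd h0 hKS, fun d lam hd h0 h1 hKS => ?_,
      fun _ _ _ hp0 hp1 hmean hp2 h0 h1 hKS => gwAdvantage_tendsto ⟨hp0, hp1⟩ hmean hp2 h0 h1 hKS⟩
    rcases h1.lt_or_eq with h1 | h1
    · exact gwAdvantage_poisson hd h0 h1 hKS
    · exact corner d lam hd h1 hKS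
  · refine ⟨fun _ hd _ h0 hKS =>
      Vale.Agent.Lib.P154_q4.advantage_tendsto Vale.Agent.Lib.P154_q4.pointIneq hd h0 hKS,
      fun d lam hd h0 h1 hKS => ?_,
      fun _ _ _ hp0 hp1 hmean hp2 h0 h1 hKS =>
        Vale.Agent.Lib.P154_q4.gwAdvantage_tendsto Vale.Agent.Lib.P154_q4.pointIneq
          ⟨hp0, hp1⟩ hmean hp2 h0 h1 hKS⟩
    rcases h1.lt_or_eq with h1 | h1
    · exact Vale.Agent.Lib.P154_q4.gwAdvantage_poisson Vale.Agent.Lib.P154_q4.pointIneq hd h0 h1 hKS
    · exact corner d lam hd h1 hKS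

end Vale.Agent.Results.P154.A_q34_ferro
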