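import Vale.Agent.Lib.P154.Tree

/-!
Nonreconstruction for the ferromagnetic three-state Potts channel on every `d`-ary tree,
at and below the Kesten-Stigum bound.
-/

open Filter Topology

namespace Vale.Agent.Results.P154.A_q3_ferro

theorem result (d : ℕ) (hd : 2 ≤ d) (lam : ℝ) (h0 : 0 ≤ lam) (hKS : (d : ℝ) * lam ^ 2 ≤ 1) :
    Tendsto (Vale.Agent.Lib.P154.advantage d 3 lam) atTop (𝓝 0) :=
  Vale.Agent.Lib.P154.advantage_tendsto hd h0 hKS

end Vale.Agent.Results.P154.A_q3_ferro
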