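import Vale.Agent.Lib.P154.TreeGW

/-!
Nonreconstruction for the ferromagnetic three-state Potts channel at and below the Kesten-Stigum
bound: on every `d`-ary tree, on Poisson trees, and on Galton-Watson trees with any offspring law
that has a finite mean and can have at least two children.
-/

open Filter Topology Vale.Agent.Lib.P154

namespace Vale.Agent.Results.P154.A_q3_ferro_GW

theorem result :
    (∀ d : ℕ, 2 ≤ d → ∀ lam : ℝ, 0 ≤ lam → (d : ℝ) * lam ^ 2 ≤ 1 →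
      Tendsto (advantage d 3 lam) atTop (𝓝 0))
    ∧ (∀ d lam : ℝ, 0 < d → 0 ≤ lam → lam < 1 → d * lam ^ 2 ≤ 1 →
      (∀ n, Summable (fun T : GWTree n => gwWeight (poissonLaw d) n T * gwTreeAdvantage 3 lam n T))
        ∧ Tendsto (gwAdvantage (poissonLaw d) 3 lam) atTop (𝓝 0))
    ∧ (∀ (p : ℕ → ℝ) (d lam : ℝ), (∀ k, 0 ≤ p k) → HasSum p 1 →
      HasSum (fun k : ℕ => (k : ℝ) * p k) d → 0 < 1 - p 0 - p 1 →
      0 ≤ lam → lam < 1 → d * lam ^ 2 ≤ 1 →
      (∀ n, Summable (fun T : GWTree n => gwWeight p n T * gwTreeAdvantage 3 lam n T))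
        ∧ Tendsto (gwAdvantage p 3 lam) atTop (𝓝 0)) :=
  ⟨fun _ hd _ h0 hKS => advantage_tendsto hd h0 hKS,
    fun _ _ hd h0 h1 hKS => gwAdvantage_poisson hd h0 h1 hKS,
    fun _ _ _ hp0 hp1 hmean hp2 h0 h1 hKS => gwAdvantage_tendsto ⟨hp0, hp1⟩ hmean hp2 h0 h1 hKS⟩

end Vale.Agent.Results.P154.A_q3_ferro_GW
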