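import Vale.Agent.Lib.P154.NegGW

/-!
Nonreconstruction for the three-state Potts channel with a negative eigenvalue.
-/

open Filter Topology Vale.Agent.Lib.P154

namespace Vale.Agent.Results.P154.A_q3_neg

theorem result :
    (∀ d : ℕ, 2 ≤ d → ∀ lam : ℝ, -(1 / 2) ≤ lam → lam < 0 →
      (d ≤ 3 ∨ (d : ℝ) * lam ^ 2 ≤ 1 - 3 / (d : ℝ) ^ 2 ∨ (31 ≤ d ∧ (d : ℝ) * lam ^ 2 ≤ 1)) →
      Tendsto (advantage d 3 lam) atTop (𝓝 0))
    ∧ (∀ d lam : ℝ, 0 < d → -(9 / 50) ≤ lam → lam < 0 → d * lam ^ 2 ≤ 1 →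
      (∀ n, Summable (fun T : GWTree n => gwWeight (poissonLaw d) n T * gwTreeAdvantage 3 lam n T))
        ∧ Tendsto (gwAdvantage (poissonLaw d) 3 lam) atTop (𝓝 0))
    ∧ (∀ (p : ℕ → ℝ) (d lam : ℝ), (∀ k, 0 ≤ p k) → HasSum p 1 →
      HasSum (fun k : ℕ => (k : ℝ) * p k) d → 0 < 1 - p 0 - p 1 →
      -(9 / 50) ≤ lam → lam < 0 → d * lam ^ 2 ≤ 1 →
      (∀ n, Summable (fun T : GWTree n => gwWeight p n T * gwTreeAdvantage 3 lam n T))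
        ∧ Tendsto (gwAdvantage p 3 lam) atTop (𝓝 0)) := by
  refine ⟨fun d hd lam h0 h1 hc => reg_main d hd lam h0 h1 hc, ?_, ?_⟩
  · intro d lam hd h0 h1 hKS
    obtain ⟨μ, rfl⟩ : ∃ μ, lam = -μ := ⟨-lam, by ring⟩
    have hsq : (-μ) ^ 2 = μ ^ 2 := by ring
    rw [hsq] at hKS
    exact gw_crit (poisson_wprob hd.le) (poisson_mean hd.le) (poisson_p2 hd) (by linarith) (by linarith) hKS
  · intro p d lam hp0 hp1 hmean hp2 h0 h1 hKS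
    obtain ⟨μ, rfl⟩ : ∃ μ, lam = -μ := ⟨-lam, by ring⟩
    have hsq : (-μ) ^ 2 = μ ^ 2 := by ring
    rw [hsq] at hKS
    exact gw_crit ⟨hp0, hp1⟩ hmean hp2 (by linarith) (by linarith) hKS

end Vale.Agent.Results.P154.A_q3_neg
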