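import Vale.Agent.Lib.P154.Q4.Main4

/-!
Nonreconstruction for the ferromagnetic four-state Potts channel on the `d`-ary tree, at and below
the Kesten-Stigum bound, for `0 ≤ lam ≤ 1/2`. For `d ≥ 4` the condition `lam ≤ 1/2` follows from
`d * lam ^ 2 ≤ 1`.
-/

open Filter Topology

namespace Vale.Agent.Results.P154.A_q4_ferro

theorem result (d : ℕ) (hd : 2 ≤ d) (lam : ℝ) (h0 : 0 ≤ lam) (h1 : lam ≤ 1 / 2)
    (hKS : (d : ℝ) * lam ^ 2 ≤ 1) :
    Tendsto (Vale.Agent.Lib.P154.advantage d 4 lam) atTop (𝓝 0) :=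
  Vale.Agent.Lib.P154.Q4.advantage_tendsto hd h0 h1 hKS

end Vale.Agent.Results.P154.A_q4_ferro
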